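import Vale.Agent.P237.Main
import Vale.Agent.P237.Cert
import Vale.Agent.P237.Stmt

open Vale.Agent.P237.Stmt

theorem Vale.Agent.Results.P237.Petty4.result :
    ∀ n : ℕ, 4 ≤ n → ∀ K : Set (Euc n), IsBody K →
      ballVol (n - 1) ^ n * ballVol n ^ ((2 : ℤ) - n) * volE K ^ (n - 1) ≤ volE (projE K) ∧
        (volE (projE K) = ballVol (n - 1) ^ n * ballVol n ^ ((2 : ℤ) - n) * volE K ^ (n - 1) ↔
          IsEll K) := by
  intro n hn K hK
  obtain ⟨d, hd, hO⟩ := Vale.Agent.P237.oneNorm_exists hn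
  exact Vale.Agent.P237.petty_of_oneNorm (by omega) hd hO hK
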